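import Vale.Agent.P083.Defs
import Vale.Agent.P083.State
import Vale.Agent.P083.Model

namespace Vale.Agent.Results.P083.NoEmbed
open Vale.Agent.P083 Filter Topology

universe u

theorem result : ∃ (A : Type) (_ : CStarAlgebra A),
    Nontrivial A ∧ TopologicalSpace.SeparableSpace A ∧
    ∀ (B : Type u) [CStarAlgebra B] [Nontrivial B] (s₁ s₂ : B),
      star s₁ * s₁ = 1 → star s₂ * s₂ = 1 → s₁ * star s₁ + s₂ * star s₂ = 1 →
      (StarAlgebra.adjoin ℂ {s₁, s₂}).topologicalClosure = ⊤ →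
      ∀ ω : Ultrafilter ℕ, IsEmpty (A →⋆ₐ[ℂ] UltraPower ω B) := by
  obtain ⟨A, iA, h1, h2, u, s, v, hr⟩ := exists_model
  refine ⟨A, iA, h1, h2, fun B _ _ s₁ s₂ a1 a2 a3 a4 ω => ⟨fun φ => ?_⟩⟩
  obtain ⟨H, _, _, _, π, η, hη⟩ := exists_rep B
  obtain ⟨w, b, -⟩ := exists_hilbertBasis ℂ H
  let q : Linf B →⋆ₐ[ℂ] UltraPower ω B :=
    { Ideal.Quotient.mkₐ ℂ (nullIdeal ω B) with map_star' := fun _ => rfl }
  choose l hl using fun a => Ideal.Quotient.mk_surjective (φ a)
  let ev (m : ℕ) : Linf B →⋆ₐ[ℂ] B :=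
    { toFun := fun x => x.seq m
      map_one' := rfl
      map_mul' := fun _ _ => rfl
      map_zero' := rfl
      map_add' := fun _ _ => rfl
      commutes' := fun _ => rfl
      map_star' := fun _ => rfl }
  have hc : Cuntz (π s₁) (π s₂) :=
    ⟨by rw [← map_star, ← map_mul, a1, map_one], by rw [← map_star, ← map_mul, a2, map_one],
      by rw [← map_star, ← map_star, ← map_mul, ← map_mul, ← map_add, a3, map_one]⟩
  refine no_asym hc b hη ω (fun m g => π ((l (u g)).seq m)) (fun m a => π ((l (s a)).seq m))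
    (fun m => π ((l v).seq m)) (fun m g => hc.loc_hom b π hη a4 _)
    (fun g => (l (u g)).bdd.imp (fun C hC m => (NonUnitalStarAlgHom.norm_apply_le π _).trans
      (hC m))) (fun j => ?_)
  have h3 : rel (fun g => l (u g)) (fun a => l (s a)) (l v) j ∈ nullIdeal ω B := by
    rw [← Ideal.Quotient.eq_zero_iff_mem]
    refine (rel_map q _ _ _ j).symm.trans ?_
    have e : ∀ a, q (l a) = φ a := hl
    simp only [e]
    rw [rel_map, hr, map_zero]
  refine squeeze_zero (fun _ => norm_nonneg _) (fun m => ?_) h3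
  exact (congrArg norm (rel_map (π.comp (ev m)) _ _ _ j)).le.trans
    (NonUnitalStarAlgHom.norm_apply_le π _)

end Vale.Agent.Results.P083.NoEmbed
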